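import Mathlib

/-!
# P043: the periodic tiling conjecture for tiles of prime cardinality, in every dimension

If a finite set `F` of prime cardinality `p` tiles `ℤ^d` by translations, then every tiling `A` by
`F` is invariant under all the vectors `p • (f - f')`, `f, f' ∈ F`, and `F` admits a tiling which is
invariant under a subgroup of finite index.
-/

open Finset

namespace Vale.Agent.Results.P043.PrimeCard

variable {G : Type*} [AddCommGroup G]

/-- `A ⊕ F = G`: every `g` has a unique expression `g = a + f` with `a ∈ A`, `f ∈ F`. -/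
def IsTiling (A : Set G) (F : Finset G) : Prop :=
  ∀ g : G, ∃! p : G × G, p.1 ∈ A ∧ p.2 ∈ F ∧ p.1 + p.2 = g

/-- `A` is periodic: `A + h = A` for every `h` in some subgroup of finite index. -/
def IsPeriodic (A : Set G) : Prop :=
  ∃ H : AddSubgroup G, H.FiniteIndex ∧ ∀ h ∈ H, ∀ a, a + h ∈ A ↔ a ∈ A

/-- shift operators on functions `G → R` -/
noncomputable def shiftEnd (R : Type*) [CommRing R] (g : G) : Module.End R (G → R) where
  toFun φ := fun x => φ (x - g)
  map_add' _ _ := rfl
  map_smul' _ _ := rfl

/-- the shift operators as a monoid homomorphism -/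
noncomputable def shiftHom (R : Type*) [CommRing R] :
    Multiplicative G →* Module.End R (G → R) where
  toFun g := shiftEnd R g.toAdd
  map_one' := by
    ext φ x
    simp [shiftEnd]
  map_mul' a b := by
    ext φ x
    simp [shiftEnd, sub_sub]

/-- the action of the group algebra on functions by convolution -/
noncomputable def act (R : Type*) [CommRing R] :
    AddMonoidAlgebra R G →ₐ[R] Module.End R (G → R) :=
  AddMonoidAlgebra.lift R (Module.End R (G → R)) G (shiftHom R)

lemma act_single (R : Type*) [CommRing R] (g : G) (φ : G → R) (x : G) :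
    act R (AddMonoidAlgebra.single g (1 : R)) φ x = φ (x - g) := by
  simp [act, AddMonoidAlgebra.lift_single, shiftHom, shiftEnd]

lemma act_sum_single (R : Type*) [CommRing R] (F : Finset G) (c : ℕ) (φ : G → R) (x : G) :
    act R (∑ f ∈ F, AddMonoidAlgebra.single (c • f) (1 : R)) φ x = ∑ f ∈ F, φ (x - c • f) := by
  simp [map_sum, act_single, LinearMap.sum_apply, Finset.sum_apply]

open Classical in
/-- In a tiling, exactly one `f ∈ F` has `x - f ∈ A`. -/
lemma IsTiling.card_filter {A : Set G} {F : Finset G} (h : IsTiling A F) (x : G) :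
    (F.filter (fun f => x - f ∈ A)).card = 1 := by
  obtain ⟨⟨a, f⟩, ⟨ha, hf, haf⟩, huniq⟩ := h x
  rw [Finset.card_eq_one]
  refine ⟨f, ?_⟩
  ext f'
  simp only [Finset.mem_filter, Finset.mem_singleton]
  constructor
  · rintro ⟨hf', hx⟩
    have := huniq (x - f', f') ⟨hx, hf', by simp⟩
    simpa using (congrArg Prod.snd this)
  · rintro rfl
    refine ⟨hf, ?_⟩
    simp only at haf ha
    rw [← haf]; simpa using ha

open Classical in
/-- Frobenius in the group algebra over `ZMod p`: the number of `f ∈ F` with `x - p • f ∈ A` is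
divisible by `p = |F|`. -/
lemma count_dvd {A : Set G} {F : Finset G} (p : ℕ) [hp : Fact p.Prime] (hF : F.card = p)
    (h : IsTiling A F) (x : G) :
    p ∣ (F.filter (fun f => x - p • f ∈ A)).card := by
  set R := ZMod p
  let φ : G → R := fun y => if y ∈ A then 1 else 0
  let P : AddMonoidAlgebra R G := ∑ f ∈ F, AddMonoidAlgebra.single (1 • f) (1 : R)
  have hchar : CharP (AddMonoidAlgebra R G) p := charP_of_injective_algebraMap' R p
  have hPp : P ^ p = ∑ f ∈ F, AddMonoidAlgebra.single (p • f) (1 : R) := by
    simp only [P]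
    rw [sum_pow_char p]
    refine Finset.sum_congr rfl fun f _ => ?_
    rw [AddMonoidAlgebra.single_pow]
    simp
  have h1 : act R P φ = fun _ => 1 := by
    funext y
    rw [act_sum_single]
    simp only [φ, one_smul]
    rw [Finset.sum_ite, Finset.sum_const_zero, add_zero, Finset.sum_const, h.card_filter y]
    simp
  have h2 : act R P (fun _ => (1 : R)) = 0 := by
    funext y
    rw [act_sum_single]
    simp [hF]
  have h3 : act R (P ^ p) φ = 0 := by
    have hgen : ∀ k : ℕ, act R (P ^ (k + 1 + 1)) φ = 0 := by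
      intro k
      rw [pow_succ, pow_succ, map_mul, map_mul, Module.End.mul_apply, Module.End.mul_apply, h1, h2,
        map_zero]
    have hk : p = (p - 2) + 1 + 1 := by have := hp.out.two_le; omega
    have := hgen (p - 2)
    rwa [← hk] at this
  have h4 : ∑ f ∈ F, φ (x - p • f) = 0 := by
    rw [← act_sum_single, ← hPp, h3]; rfl
  simp only [φ] at h4
  rw [Finset.sum_ite, Finset.sum_const_zero, add_zero, Finset.sum_const] at h4
  simp only [nsmul_eq_mul, mul_one] at h4
  exact (ZMod.natCast_eq_zero_iff _ _).1 h4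

/-- Every tiling by a tile of prime cardinality `p` is invariant under `p • (f - f')`. -/
lemma periodic_of_prime {A : Set G} {F : Finset G} (hF : F.card.Prime)
    (h : IsTiling A F) {f f' : G} (hf : f ∈ F) (hf' : f' ∈ F) (a : G) :
    a + F.card • (f - f') ∈ A ↔ a ∈ A := by
  classical
  have : Fact F.card.Prime := ⟨hF⟩
  have key : ∀ x : G, ∀ g ∈ F, ∀ g' ∈ F, x - F.card • g ∈ A → x - F.card • g' ∈ A := by
    intro x g hg g' hg' hx
    have hd := count_dvd F.card rfl h x
    have hpos : 0 < (F.filter (fun f => x - F.card • f ∈ A)).card :=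
      Finset.card_pos.2 ⟨g, Finset.mem_filter.2 ⟨hg, hx⟩⟩
    have hle : (F.filter (fun f => x - F.card • f ∈ A)).card ≤ F.card := Finset.card_filter_le _ _
    have heq : (F.filter (fun f => x - F.card • f ∈ A)).card = F.card :=
      le_antisymm hle (Nat.le_of_dvd hpos hd)
    have := (Finset.filter_eq_self.1
      (Finset.eq_of_subset_of_card_le (Finset.filter_subset _ _) heq.ge))
    exact this g' hg'
  constructor
  · intro ha
    have := key (a + F.card • f) f' hf' f hf (by
      have : a + F.card • f - F.card • f' = a + F.card • (f - f') := by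
        rw [smul_sub]; abel
      rwa [this])
    simpa using this
  · intro ha
    have := key (a + F.card • f) f hf f' hf' (by simpa using ha)
    have h2 : a + F.card • f - F.card • f' = a + F.card • (f - f') := by
      rw [smul_sub]; abel
    rwa [h2] at this

lemma exists_exponent [Module.Finite ℤ G] (L : Submodule ℤ G) :
    ∃ e : ℕ, 0 < e ∧ ∀ g : G, ∀ n : ℕ, n ≠ 0 → n • g ∈ L → e • g ∈ L := by
  have hfin : Finite (Submodule.torsion ℤ (G ⧸ L)) :=
    Module.finite_of_fg_torsion _ Submodule.torsion_isTorsion
  refine ⟨Nat.card (Submodule.torsion ℤ (G ⧸ L)), Nat.card_pos, ?_⟩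
  intro g n hn hg
  have hmem : (Submodule.Quotient.mk g : G ⧸ L) ∈ Submodule.torsion ℤ (G ⧸ L) := by
    rw [Submodule.mem_torsion_iff]
    refine ⟨⟨(n : ℤ), mem_nonZeroDivisors_of_ne_zero (by exact_mod_cast hn)⟩, ?_⟩
    change (n : ℤ) • (Submodule.Quotient.mk g : G ⧸ L) = 0
    rw [← Submodule.Quotient.mk_smul, Submodule.Quotient.mk_eq_zero]
    simpa using hg
  have h0 : Nat.card (Submodule.torsion ℤ (G ⧸ L)) •
      (⟨Submodule.Quotient.mk g, hmem⟩ : Submodule.torsion ℤ (G ⧸ L)) = 0 := card_nsmul_eq_zero'
  have h1 := congrArg Subtype.val h0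
  simp only [Submodule.coe_smul_of_tower, ZeroMemClass.coe_zero] at h1
  rw [← Submodule.Quotient.mk_smul, Submodule.Quotient.mk_eq_zero] at h1
  exact h1

lemma finiteIndex_range_nsmul [Module.Finite ℤ G] (m : ℕ) (hm : 0 < m) :
    (nsmulAddMonoidHom (α := G) m).range.FiniteIndex := by
  set K : AddSubgroup G := (nsmulAddMonoidHom (α := G) m).range
  have hfg : Module.Finite ℤ (G ⧸ AddSubgroup.toIntSubmodule K) := inferInstance
  have htors : Module.IsTorsion ℤ (G ⧸ AddSubgroup.toIntSubmodule K) := by
    intro x
    refine ⟨⟨(m : ℤ), mem_nonZeroDivisors_of_ne_zero (by exact_mod_cast hm.ne')⟩, ?_⟩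
    induction x using Submodule.Quotient.induction_on with
    | H g =>
      change (m : ℤ) • (Submodule.Quotient.mk g : G ⧸ AddSubgroup.toIntSubmodule K) = 0
      rw [← Submodule.Quotient.mk_smul, Submodule.Quotient.mk_eq_zero]
      change (m : ℤ) • g ∈ K
      exact ⟨g, by simp⟩
  have hfin : Finite (G ⧸ AddSubgroup.toIntSubmodule K) := Module.finite_of_fg_torsion _ htors
  have hfin' : Finite (G ⧸ K) := hfin
  exact AddSubgroup.finiteIndex_of_finite_quotient

/-- If a tiling `A` by `F` is invariant under `p • (f - f0)` for all `f ∈ F`, then `F` admits a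
periodic tiling. -/
lemma exists_periodic_tiling [Module.Finite ℤ G] {A : Set G} {F : Finset G} (h : IsTiling A F)
    {f0 : G} (p : ℕ) (hp : 0 < p)
    (hper : ∀ f ∈ F, ∀ a, a + p • (f - f0) ∈ A ↔ a ∈ A) :
    ∃ A' : Set G, IsTiling A' F ∧ IsPeriodic A' := by
  classical
  set L : AddSubgroup G := AddSubgroup.closure ((fun f => f - f0) '' (F : Set G)) with hL
  have hFL : ∀ f ∈ F, f - f0 ∈ L := fun f hf =>
    AddSubgroup.subset_closure ⟨f, hf, rfl⟩
  have hFL2 : ∀ f ∈ F, ∀ f' ∈ F, f - f' ∈ L := fun f hf f' hf' => by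
    have := L.sub_mem (hFL f hf) (hFL f' hf')
    simpa using this
  have hinv : ∀ l ∈ L, ∀ a, a + p • l ∈ A ↔ a ∈ A := by
    intro l hl
    induction hl using AddSubgroup.closure_induction with
    | mem x hx =>
      obtain ⟨f, hf, rfl⟩ := hx
      exact hper f hf
    | zero => intro a; simp
    | add x y _ _ hx hy =>
      intro a
      rw [smul_add, ← add_assoc, hy, hx]
    | neg x _ hx =>
      intro a
      rw [← hx (a + p • -x)]
      simp
  obtain ⟨e, he, hexp⟩ := exists_exponent (AddSubgroup.toIntSubmodule L)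
  set K : AddSubgroup G := (nsmulAddMonoidHom (α := G) (p * e)).range with hK
  have hKfin : K.FiniteIndex := finiteIndex_range_nsmul (p * e) (Nat.mul_pos hp he)
  have hKL : ∀ x ∈ K, x ∈ L → ∃ l ∈ L, x = p • l := by
    rintro x ⟨g, rfl⟩ hx
    refine ⟨e • g, hexp g (p * e) (Nat.mul_pos hp he).ne' hx, ?_⟩
    simp [mul_smul]
  let rep : G → G := fun x => Quotient.out (QuotientAddGroup.mk x : G ⧸ (K ⊔ L))
  have hrep : ∀ x, x - rep x ∈ K ⊔ L := by
    intro x
    obtain ⟨h, hh⟩ := QuotientAddGroup.mk_out_eq_add (K ⊔ L) x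
    have : x - rep x = -(h : G) := by
      simp only [rep, hh]; abel
    rw [this]
    exact (K ⊔ L).neg_mem h.2
  have hrep_eq : ∀ x y, x - y ∈ K ⊔ L → rep x = rep y := by
    intro x y hxy
    have : (QuotientAddGroup.mk x : G ⧸ (K ⊔ L)) = QuotientAddGroup.mk y := by
      rw [QuotientAddGroup.eq]
      have := (K ⊔ L).neg_mem hxy
      simpa [add_comm, sub_eq_add_neg] using this
    simp only [rep, this]
  let A' : Set G := {x | ∃ k ∈ K, x - k ∈ A ∧ (x - k) - rep x ∈ L}
  refine ⟨A', ?_, K, hKfin, ?_⟩
  · intro x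
    obtain ⟨k, hk, l, hl, hkl⟩ := AddSubgroup.mem_sup.1 (hrep (x - f0))
    obtain ⟨⟨a, f⟩, ⟨ha, hf, haf⟩, huniq⟩ := h (x - k)
    simp only at ha hf haf
    have hrepa : rep (a + k) = rep (x - f0) := by
      apply hrep_eq
      have : a + k - (x - f0) = -(f - f0) := by
        have : a = x - k - f := by rw [← haf]; abel
        rw [this]; abel
      rw [this]
      exact (K ⊔ L).neg_mem (AddSubgroup.mem_sup_right (hFL f hf))
    refine ⟨(a + k, f), ⟨⟨k, hk, by simpa using ha, ?_⟩, hf, ?_⟩, ?_⟩
    · simp only [add_sub_cancel_right, hrepa]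
      have : a - rep (x - f0) = l - (f - f0) := by
        have h1 : a = x - k - f := by rw [← haf]; abel
        have h2 : rep (x - f0) = x - f0 - (k + l) := by rw [hkl]; abel
        rw [h1, h2]; abel
      rw [this]
      exact L.sub_mem hl (hFL f hf)
    · simp only
      rw [add_right_comm, haf]; abel
    · rintro ⟨b, f'⟩ ⟨⟨k', hk', hb, hbL⟩, hf', hbf⟩
      simp only at hb hbL hf' hbf
      have hrepb : rep b = rep (x - f0) := by
        apply hrep_eq
        have : b - (x - f0) = -(f' - f0) := by
          rw [← hbf]; abel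
        rw [this]
        exact (K ⊔ L).neg_mem (AddSubgroup.mem_sup_right (hFL f' hf'))
      have haL : a - rep (x - f0) ∈ L := by
        have : a - rep (x - f0) = l - (f - f0) := by
          have h1 : a = x - k - f := by rw [← haf]; abel
          have h2 : rep (x - f0) = x - f0 - (k + l) := by rw [hkl]; abel
          rw [h1, h2]; abel
        rw [this]
        exact L.sub_mem hl (hFL f hf)
      rw [hrepb] at hbL
      have hdiffL : (b - k') - a ∈ L := by
        have := L.sub_mem hbL haL
        simpa using this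
      have hkk : k - k' ∈ L := by
        have : k - k' = ((b - k') - a) + (f' - f) := by
          have h1 : a = x - k - f := by rw [← haf]; abel
          have h2 : b = x - f' := by rw [← hbf]; abel
          rw [h1, h2]; abel
        rw [this]
        exact L.add_mem hdiffL (hFL2 f' hf' f hf)
      obtain ⟨l', hl', hkl'⟩ := hKL (k - k') (K.sub_mem hk hk') hkk
      have hbA : b - k ∈ A := by
        have : (b - k) + p • l' = b - k' := by rw [← hkl']; abel
        rw [← hinv l' hl' (b - k), this]
        exact hb
      have := huniq (b - k, f') ⟨hbA, hf', by simp only; rw [← hbf]; abel⟩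
      have h1 : b - k = a := congrArg Prod.fst this
      have h2 : f' = f := congrArg Prod.snd this
      rw [Prod.mk.injEq]
      exact ⟨by rw [← h1]; abel, h2⟩
  · intro hh hhK a
    constructor
    · rintro ⟨k, hk, h1, h2⟩
      refine ⟨k - hh, K.sub_mem hk hhK, ?_, ?_⟩
      · have : a - (k - hh) = a + hh - k := by abel
        rw [this]; exact h1
      · have e1 : a - (k - hh) = a + hh - k := by abel
        have e2 : rep a = rep (a + hh) := by
          apply hrep_eq
          have : a - (a + hh) = -hh := by abel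
          rw [this]
          exact (K ⊔ L).neg_mem (AddSubgroup.mem_sup_left hhK)
        rw [e1, e2]; exact h2
    · rintro ⟨k, hk, h1, h2⟩
      refine ⟨k + hh, K.add_mem hk hhK, ?_, ?_⟩
      · have : a + hh - (k + hh) = a - k := by abel
        rw [this]; exact h1
      · have e1 : a + hh - (k + hh) = a - k := by abel
        have e2 : rep (a + hh) = rep a := by
          apply hrep_eq
          have : a + hh - a = hh := by abel
          rw [this]
          exact AddSubgroup.mem_sup_left hhK
        rw [e1, e2]; exact h2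

/-- **Periodic tiling conjecture for tiles of prime cardinality, in every dimension `d`.**
Let `F ⊂ ℤ^d` be finite of prime cardinality and let `A ⊕ F = ℤ^d`. Then `A` is invariant under
`|F| • (f - f')` for all `f, f' ∈ F`, and `F` admits a periodic tiling. -/
theorem result (d : ℕ) (F : Finset (Fin d → ℤ)) (hF : F.card.Prime)
    (A : Set (Fin d → ℤ)) (hA : IsTiling A F) :
    (∀ f ∈ F, ∀ f' ∈ F, ∀ a, a + F.card • (f - f') ∈ A ↔ a ∈ A) ∧
      ∃ A' : Set (Fin d → ℤ), IsTiling A' F ∧ IsPeriodic A' := by
  refine ⟨fun f hf f' hf' a => periodic_of_prime hF hA hf hf' a, ?_⟩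
  obtain ⟨f0, hf0⟩ : F.Nonempty := Finset.card_pos.1 hF.pos
  exact exists_periodic_tiling hA F.card hF.pos
    (fun f hf a => periodic_of_prime hF hA hf hf0 a)

end Vale.Agent.Results.P043.PrimeCard
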